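import Vale.Agent.P245.H895.QuadI

/-!
P245, lower tails of convex functions (Theorem A of helper805, note 18557): interface.

`μ` log-concave and linearly `a`-subgaussian, `f` convex, 1-Lipschitz, smooth. `tm μ f s = e^{-s f} μ / Z`.
-/

set_option linter.all false

open MeasureTheory Filter Topology Set Metric Matrix
open scoped NNReal ENNReal ContDiff
open Vale.Agent.P227.M Vale.Agent.P254

namespace Vale.Agent.P245.LT

variable {n : ℕ}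

/-- covariance of two functions -/
noncomputable def cv (ν : Measure (E n)) (g h : E n → ℝ) : ℝ :=
  (∫ x, g x * h x ∂ν) - (∫ x, g x ∂ν) * ∫ x, h x ∂ν

/-- the linear function `⟨x, v⟩` -/
noncomputable def li (v : E n) (x : E n) : ℝ := inner ℝ x v

/-- variance of `⟨x, v⟩` -/
noncomputable def va (ν : Measure (E n)) (v : E n) : ℝ := cv ν (li v) (li v)

/-- centred square of `⟨x, v⟩` -/
noncomputable def sq (ν : Measure (E n)) (v : E n) (x : E n) : ℝ := (li v x - ∫ y, li v y ∂ν) ^ 2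

/-- quadratic form of a matrix -/
noncomputable def qf (K : Matrix (Fin n) (Fin n) ℝ) (v : E n) : ℝ := ∑ i, ∑ j, K i j * (v i * v j)

/-- covariance matrix -/
noncomputable def cm (ν : Measure (E n)) : Matrix (Fin n) (Fin n) ℝ :=
  Matrix.of fun i j => cv ν (fun x => x i) (fun x => x j)

/-- `x` minus its projection on the span of the orthonormal family `v` -/
noncomputable def co {m : ℕ} (v : Fin m → E n) (x : E n) : E n := x - ∑ j, (inner ℝ x (v j) : ℝ) • v j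

/-- the standing hypotheses -/
structure Dat (μ : Measure (E n)) (a : ℝ) (f : E n → ℝ) : Prop where
  prob : IsProbabilityMeasure μ
  lc : HasLogConcaveDensity μ
  apos : 0 < a
  sub : LinearlySubgaussian μ a
  smooth : ContDiff ℝ ∞ f
  conv : ConvexOn ℝ univ f
  lip : LipschitzWith 1 f

/-- the tilted measure `e^{-s f} μ / Z` -/
noncomputable def tm (μ : Measure (E n)) (f : E n → ℝ) (s : ℝ) : Measure (E n) :=
  μ.tilted fun x => -(s * f x)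

/-- `D(s) = E_0 f - E_s f` -/
noncomputable def dd (μ : Measure (E n)) (f : E n → ℝ) (s : ℝ) : ℝ :=
  (∫ x, f x ∂μ) - ∫ x, f x ∂(tm μ f s)

/-! ### simple facts, proved here -/

theorem gr_of_lip {f : E n → ℝ} (h : LipschitzWith 1 f) : Gr f := by
  refine ⟨h.continuous, |f 0| + 1, 1, by positivity, fun x => ?_⟩
  have h1 := h.dist_le_mul x 0
  rw [Real.dist_eq, dist_zero_right] at h1
  have h2 : |f x| ≤ |f x - f 0| + |f 0| := by
    have := abs_add_le (f x - f 0) (f 0)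
    simpa using this
  have h3 := norm_nonneg x
  have h4 := abs_nonneg (f 0)
  simp only [NNReal.coe_one, one_mul] at h1
  rw [pow_one]
  nlinarith

theorem gr_li (v : E n) : Gr (li v) := by
  have h1 := Vale.Agent.P245.Q895.gr_lin0 (n := n) (fun i => v i)
  have e : li v = fun x : E n => ∑ i, v i * x i := by
    funext x
    exact Vale.Agent.P245.Q895.inner_sum x v
  rw [e]
  exact h1

/-! ### the rows -/

/-- TILT: the tilts are log-concave probability measures -/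
def StTilt : Prop := ∀ (n : ℕ) (μ : Measure (E n)) (a : ℝ) (f : E n → ℝ), Dat μ a f →
  tm μ f 0 = μ ∧ ∀ s : ℝ, 0 ≤ s → IsProbabilityMeasure (tm μ f s) ∧ HasLogConcaveDensity (tm μ f s)

/-- DER: derivative of expectations along the path (all real `s`) -/
def StDer : Prop := ∀ (n : ℕ) (μ : Measure (E n)) (a : ℝ) (f : E n → ℝ), Dat μ a f →
  ∀ g : E n → ℝ, Gr g → ∀ s : ℝ, Integrable g (tm μ f s) ∧
    HasDerivAt (fun r => ∫ x, g x ∂(tm μ f r)) (-(cv (tm μ f s) f g)) s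

/-- LOG: derivative of the log-partition function (all real `s`) -/
def StLog : Prop := ∀ (n : ℕ) (μ : Measure (E n)) (a : ℝ) (f : E n → ℝ), Dat μ a f →
  ∀ s : ℝ, Integrable (fun x => Real.exp (-(s * f x))) μ ∧
    HasDerivAt (fun r => Real.log (∫ x, Real.exp (-(r * f x)) ∂μ)) (-(∫ x, f x ∂(tm μ f s))) s

/-- CO: the projection `co v` -/
def StCo : Prop := ∀ (n m : ℕ) (v : Fin m → E n), Orthonormal ℝ v →
  (∀ x i, inner ℝ (co v x) (v i) = 0) ∧ (∀ x, ‖x - co v x‖ ^ 2 = ∑ j, li (v j) x ^ 2) ∧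
  LipschitzWith 1 (co v) ∧ (∀ x y, inner ℝ (co v x) y = inner ℝ x (co v y)) ∧
  (∀ x, ‖co v x‖ ≤ ‖x‖) ∧ ContDiff ℝ ∞ (co v)

/-- VA: elementary facts on covariances of a log-concave probability measure -/
def StVa : Prop := ∀ (n : ℕ) (ν : Measure (E n)) [IsProbabilityMeasure ν], HasLogConcaveDensity ν →
  (∀ u, va ν u = qf (cm ν) u) ∧ (∀ u, 0 ≤ va ν u) ∧ (∀ u, va ν u ≤ ∫ x, li u x ^ 2 ∂ν) ∧
  (∀ g h : E n → ℝ, Gr g → Gr h → cv ν g h ^ 2 ≤ cv ν g g * cv ν h h) ∧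
  (∀ g : E n → ℝ, Gr g → 0 ≤ cv ν g g)

/-- EXPM: exponential moment of a projection -/
def StExpM : Prop := ∀ (n : ℕ) (μ : Measure (E n)) [IsProbabilityMeasure μ] (a : ℝ), 0 < a →
  LinearlySubgaussian μ a → ∀ (b : ℕ) (v : Fin b → E n), Orthonormal ℝ v →
    ∫⁻ x, ENNReal.ofReal (Real.exp ((∑ j, li (v j) x ^ 2) / (2 * a ^ 2))) ∂μ ≤
      ENNReal.ofReal (Real.exp (1 + b))

/-- GIB: Gibbs inequality on a subspace -/
def StGib : Prop := ∀ (n : ℕ) (μ : Measure (E n)) (a : ℝ) (f : E n → ℝ), Dat μ a f →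
  ∀ s : ℝ, 0 ≤ s → ∀ (b : ℕ) (v : Fin b → E n), Orthonormal ℝ v →
    ∫ x, ∑ j, li (v j) x ^ 2 ∂(tm μ f s) ≤ 2 * a ^ 2 * (s * dd μ f s + 1 + b)

/-- SV: the variance bound (S1) for the active directions -/
def StSV : Prop := ∀ (n : ℕ) (ν : Measure (E n)) [IsProbabilityMeasure ν], HasLogConcaveDensity ν →
  ∀ f : E n → ℝ, Gr f → ∀ (m : ℕ) (v : Fin m → E n), Orthonormal ℝ v → ∀ (S : Finset (Fin m))
    (K0 K1 : ℝ), 0 < K0 → (∀ j ∈ S, K0 ≤ va ν (v j)) →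
    (∀ u ∈ Submodule.span ℝ (v '' (S : Set (Fin m))), va ν u ≤ K1 * ‖u‖ ^ 2) →
    (∑ j ∈ S, cv ν f (sq ν (v j)) / va ν (v j)) ^ 2 ≤ 16 * cv ν f f * (K1 / K0 * S.card)

/-- UNION: greedy choice of the bad directions along a continuous path of matrices -/
def StUnion : Prop := ∀ (n : ℕ) (K : ℝ → Matrix (Fin n) (Fin n) ℝ) (lam K0 K1 : ℝ), 0 ≤ lam →
  0 < K0 → K0 < K1 → (∀ i j, Continuous fun s => K s i j) →
  (∀ v : E n, qf (K 0) v ≤ K0 * ‖v‖ ^ 2) →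
  ∃ (m : ℕ) (v : Fin m → E n) (r t : Fin m → ℝ), Orthonormal ℝ v ∧
    (∀ j, 0 ≤ r j ∧ r j ≤ t j ∧ t j ≤ lam ∧ qf (K (r j)) (v j) = K0 ∧ qf (K (t j)) (v j) = K1 ∧
      (∀ s ∈ Icc (r j) (t j), K0 ≤ qf (K s) (v j)) ∧
      (∀ s ∈ Icc 0 (t j), ∀ u : E n, (∀ i, i < j → inner ℝ u (v i) = 0) →
        qf (K s) u ≤ K1 * ‖u‖ ^ 2)) ∧
    (∀ s ∈ Icc 0 lam, ∀ u : E n, (∀ i, inner ℝ u (v i) = 0) → qf (K s) u ≤ K1 * ‖u‖ ^ 2)

/-- COUNT: few fixed directions carry all large variances along the path -/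
def StCount : Prop := ∀ (n : ℕ) (μ : Measure (E n)) (a : ℝ) (f : E n → ℝ), Dat μ a f →
  ∀ lam p : ℝ, 0 ≤ lam → 1 ≤ p → (∀ s ∈ Icc 0 lam, s * dd μ f s ≤ p - 1) →
  ∃ (m : ℕ) (v : Fin m → E n), Orthonormal ℝ v ∧ (m : ℝ) ≤ p ∧
    ∀ s ∈ Icc 0 lam, ∀ u : E n, (∀ i, inner ℝ u (v i) = 0) →
      va (tm μ f s) u ≤ 1024 * a ^ 2 * ‖u‖ ^ 2

/-- affine KLS with constant `C` (the body of `kls_final`) -/
def KLSC (C : ℝ) : Prop := ∀ (n : ℕ) (μ : Measure (EuclideanSpace ℝ (Fin n))) [IsProbabilityMeasure μ],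
  HasLogConcaveDensity μ → ∀ (b : Fin n → ℝ) (K : Matrix (Fin n) (Fin n) ℝ),
  (∀ i, ∫ x, x i ∂μ = b i) → (∀ i j, ∫ x, (x i - b i) * (x j - b j) ∂μ = K i j) →
  ∀ f : EuclideanSpace ℝ (Fin n) → ℝ, ContDiff ℝ ∞ f → HasCompactSupport f →
    (∫ x, f x ^ 2 ∂μ) - (∫ x, f x ∂μ) ^ 2 ≤
      C * ∫ x, ∑ i, ∑ j, K i j * (gradient f x i * gradient f x j) ∂μ

/-- KLSX: Poincaré inequality for a smooth 1-Lipschitz function off few directions -/
def StKX : Prop := ∀ C : ℝ, 0 < C → KLSC C → ∀ (n : ℕ) (ν : Measure (E n)) [IsProbabilityMeasure ν],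
  HasLogConcaveDensity ν → ∀ f : E n → ℝ, ContDiff ℝ ∞ f → LipschitzWith 1 f →
  ∀ (m : ℕ) (v : Fin m → E n), Orthonormal ℝ v → ∀ K1 : ℝ, 0 ≤ K1 →
    (∀ u : E n, (∀ i, inner ℝ u (v i) = 0) → va ν u ≤ K1 * ‖u‖ ^ 2) →
    cv ν (fun x => f (co v x)) (fun x => f (co v x)) ≤ C * K1

/-- FIN: the bound for `D` -/
def StFin : Prop := ∀ C : ℝ, 1 ≤ C → KLSC C → ∃ C' : ℝ, 0 < C' ∧ ∀ (n : ℕ) (μ : Measure (E n)) (a : ℝ)
  (f : E n → ℝ), Dat μ a f → ∀ lam : ℝ, 0 ≤ lam → dd μ f lam ≤ C' * a ^ 2 * lam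

/-- TAIL: lower tails, smooth case -/
def StTail : Prop := ∀ C : ℝ, 0 < C → (∀ (n : ℕ) (μ : Measure (E n)) (a : ℝ) (f : E n → ℝ), Dat μ a f →
    ∀ lam : ℝ, 0 ≤ lam → dd μ f lam ≤ C * a ^ 2 * lam) →
  ∀ (n : ℕ) (μ : Measure (E n)) (a : ℝ) (f : E n → ℝ), Dat μ a f → ∀ t : ℝ, 0 ≤ t →
    μ.real {x | f x ≤ (∫ y, f y ∂μ) - t} ≤ Real.exp (-(t ^ 2 / (2 * C * a ^ 2)))

/-- MOLL: removal of the smoothness, and convex sets -/
def StMoll : Prop := ∀ C : ℝ, 0 < C → (∀ (n : ℕ) (μ : Measure (E n)) (a : ℝ) (f : E n → ℝ), Dat μ a f →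
    ∀ t : ℝ, 0 ≤ t → μ.real {x | f x ≤ (∫ y, f y ∂μ) - t} ≤ Real.exp (-(t ^ 2 / (C * a ^ 2)))) →
  ∀ (n : ℕ) (μ : Measure (E n)) (a : ℝ), IsProbabilityMeasure μ → HasLogConcaveDensity μ → 0 < a →
    LinearlySubgaussian μ a →
    (∀ f : E n → ℝ, ConvexOn ℝ univ f → LipschitzWith 1 f → ∀ t : ℝ, 0 ≤ t →
      μ.real {x | f x ≤ (∫ y, f y ∂μ) - t} ≤ Real.exp (-(t ^ 2 / (C * a ^ 2)))) ∧
    (∀ Ω : Set (E n), Convex ℝ Ω → Ω.Nonempty →
      μ.real Ω ≤ Real.exp (-((∫ x, Metric.infDist x Ω ∂μ) ^ 2 / (C * a ^ 2))))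

end Vale.Agent.P245.LT
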