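import Vale.Agent.P245.LT.Iface

/-!
P245, lower tails of convex functions: row SV (helper515), the variance bound for the active directions.
-/

set_option linter.all false

open MeasureTheory Filter Topology Set Metric Matrix
open scoped NNReal ENNReal ContDiff
open Vale.Agent.P227.M Vale.Agent.P254
open Vale.Agent.P245.Q895

namespace Vale.Agent.P245.LT.SV

variable {n : ℕ}

/-- barycentre -/
noncomputable def bc (ν : Measure (E n)) (i : Fin n) : ℝ := ∫ x, x i ∂ν

/-- covariance matrix, centred form -/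
noncomputable def kk (ν : Measure (E n)) : Matrix (Fin n) (Fin n) ℝ :=
  Matrix.of fun i j => ∫ x, (x i - bc ν i) * (x j - bc ν j) ∂ν

section
variable {ν : Measure (E n)} [IsProbabilityMeasure ν] (hlc : HasLogConcaveDensity ν)

include hlc

/-- covariance in centred form -/
theorem cv_centre {g h : E n → ℝ} (hg : Gr g) (hh : Gr h) :
    cv ν g h = ∫ x, (g x - ∫ y, g y ∂ν) * (h x - ∫ y, h y ∂ν) ∂ν := by
  obtain ⟨m, hm⟩ : ∃ m, m = ∫ y, g y ∂ν := ⟨_, rfl⟩
  obtain ⟨k, hk⟩ : ∃ k, k = ∫ y, h y ∂ν := ⟨_, rfl⟩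
  have hgh : Integrable (fun x => g x * h x) ν := int_gr hlc (hg.mul hh)
  have h1 : Integrable (fun x => (-k) * g x) ν := (int_gr hlc hg).const_mul _
  have h2 : Integrable (fun x => (-m) * h x) ν := (int_gr hlc hh).const_mul _
  have e : ∀ x, (g x - m) * (h x - k) = ((g x * h x + (-k) * g x) + (-m) * h x) + m * k := fun x => by ring
  have i1 : Integrable (fun x => g x * h x + (-k) * g x) ν := hgh.add h1
  have i2 : Integrable (fun x => (g x * h x + (-k) * g x) + (-m) * h x) ν := i1.add h2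
  unfold cv
  rw [← hm, ← hk, integral_congr_ae (Eventually.of_forall e), integral_add i2 (integrable_const _),
    integral_add i1 h2, integral_add hgh h1, integral_const_mul, integral_const_mul, integral_const,
    ← hm, ← hk]
  simp
  ring

/-- linear functions, centred -/
theorem li_centre (v : E n) (x : E n) :
    li v x - ∫ y, li v y ∂ν = ∑ i, v i * (x i - bc ν i) := by
  have e : ∀ x : E n, li v x = ∑ i, v i * x i := fun x => inner_sum x v
  have e2 : ∫ y, li v y ∂ν = ∑ i, v i * bc ν i := by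
    rw [integral_congr_ae (Eventually.of_forall e),
      integral_finsetSum _ fun i _ => (int_gr hlc (Gr.coord i)).const_mul _]
    exact Finset.sum_congr rfl fun i _ => integral_const_mul _ _
  rw [e, e2, ← Finset.sum_sub_distrib]
  exact Finset.sum_congr rfl fun i _ => by ring

/-- covariance of two linear functions -/
theorem cv_li (v w : E n) :
    cv ν (li v) (li w) = (fun i => v i) ⬝ᵥ (kk ν *ᵥ (fun i => w i)) := by
  rw [cv_centre hlc (gr_li v) (gr_li w)]
  rw [integral_congr_ae (Eventually.of_forall fun x => by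
    show (li v x - ∫ y, li v y ∂ν) * (li w x - ∫ y, li w y ∂ν) =
      (∑ i, v i * (x i - bc ν i)) * (∑ j, w j * (x j - bc ν j))
    rw [li_centre hlc, li_centre hlc])]
  exact int_lin_mul (b := bc ν) (K := kk ν) hlc (fun i j => rfl) (fun i => v i) (fun i => w i)

theorem gr_sq (v : E n) : Gr (sq ν v) := by
  unfold sq
  exact ((gr_li v).sub (Gr.const _)).pow 2

/-- the covariance is additive in the second argument -/
theorem cv_sum {ι : Type} (S : Finset ι) (c : ι → ℝ) (G : ι → E n → ℝ) {f : E n → ℝ} (hf : Gr f)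
    (hG : ∀ j, Gr (G j)) :
    cv ν f (fun x => ∑ j ∈ S, c j * G j x) = ∑ j ∈ S, c j * cv ν f (G j) := by
  unfold cv
  have e1 : ∀ x, f x * (∑ j ∈ S, c j * G j x) = ∑ j ∈ S, c j * (f x * G j x) := by
    intro x
    rw [Finset.mul_sum]
    exact Finset.sum_congr rfl fun j _ => by ring
  rw [integral_congr_ae (Eventually.of_forall e1),
    integral_finsetSum _ fun j _ => (int_gr hlc (hf.mul (hG j))).const_mul _,
    integral_finsetSum _ fun j _ => (int_gr hlc (hG j)).const_mul _, Finset.mul_sum,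
    ← Finset.sum_sub_distrib]
  refine Finset.sum_congr rfl fun j _ => ?_
  rw [integral_const_mul, integral_const_mul]
  ring

end

/-- the trace of a product of rank one matrices -/
theorem tr_rank (K : Matrix (Fin n) (Fin n) ℝ) (u w : Fin n → ℝ) :
    (vecMulVec u u * K * vecMulVec w w * K).trace = (u ⬝ᵥ (K *ᵥ w)) * (w ⬝ᵥ (K *ᵥ u)) := by
  rw [Matrix.vecMulVec_mul, Matrix.vecMulVec_mul_vecMulVec, Matrix.vecMulVec_mul,
    Matrix.smul_vecMul, Matrix.trace_vecMulVec, dotProduct_smul, smul_eq_mul,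
    ← Matrix.dotProduct_mulVec, dotProduct_comm u (w ᵥ* K), ← Matrix.dotProduct_mulVec]

/-- the trace for a combination of rank one matrices -/
theorem tr_comb {m : ℕ} (K : Matrix (Fin n) (Fin n) ℝ) (S : Finset (Fin m)) (c : Fin m → ℝ)
    (u : Fin m → Fin n → ℝ) :
    ((∑ j ∈ S, c j • vecMulVec (u j) (u j)) * K * (∑ j ∈ S, c j • vecMulVec (u j) (u j)) * K).trace =
      ∑ j ∈ S, ∑ k ∈ S, c j * c k * ((u j ⬝ᵥ (K *ᵥ u k)) * (u k ⬝ᵥ (K *ᵥ u j))) := by
  simp only [Finset.sum_mul, Finset.mul_sum, Matrix.trace_sum, Matrix.smul_mul, Matrix.mul_smul,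
    Matrix.trace_smul, smul_eq_mul]
  refine (Finset.sum_comm).trans ?_
  refine Finset.sum_congr rfl fun j _ => Finset.sum_congr rfl fun k _ => ?_
  rw [tr_rank]
  ring

/-- **row SV** -/
theorem sv (hV : StVa) : StSV := by
  intro n ν _ hlc f hf m v hv S K0 K1 hK0 hlow hup
  obtain ⟨_, _, _, hCS, hpos⟩ := hV n ν hlc
  -- notation
  set K := kk ν with hKdef
  set u : Fin m → Fin n → ℝ := fun j i => v j i with hu
  set a : Fin m → ℝ := fun j => va ν (v j) with ha
  have ha0 : ∀ j ∈ S, 0 < a j := fun j hj => lt_of_lt_of_le hK0 (hlow j hj)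
  have hcv : ∀ j k, cv ν (li (v j)) (li (v k)) = u j ⬝ᵥ (K *ᵥ u k) := fun j k => cv_li hlc (v j) (v k)
  have hsymc : ∀ g h : E n → ℝ, cv ν g h = cv ν h g := by
    intro g h
    unfold cv
    rw [mul_comm (∫ x, g x ∂ν)]
    congr 1
    exact integral_congr_ae (Eventually.of_forall fun x => mul_comm _ _)
  set T : Matrix (Fin n) (Fin n) ℝ := ∑ j ∈ S, (1 / a j) • vecMulVec (u j) (u j) with hT
  have hTs : Tᵀ = T := by
    rw [hT, Matrix.transpose_sum]
    refine Finset.sum_congr rfl fun j _ => ?_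
    rw [Matrix.transpose_smul, Matrix.transpose_vecMulVec]
  -- the quadratic polynomial
  set Q : E n → ℝ := fun x => ∑ j ∈ S, (1 / a j) * sq ν (v j) x with hQ
  have hQG : Gr Q := Gr.sum _ fun j _ => (gr_sq hlc (v j)).const_mul _
  have hQT : ∀ x, Q x = ∑ i, ∑ j, T i j * ((x i - bc ν i) * (x j - bc ν j)) := by
    intro x
    have e1 : ∀ j, sq ν (v j) x = ∑ i, ∑ k, u j i * u j k * ((x i - bc ν i) * (x k - bc ν k)) := by
      intro j
      unfold sq
      rw [li_centre hlc, pow_two, Finset.sum_mul_sum]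
      exact Finset.sum_congr rfl fun i _ => Finset.sum_congr rfl fun k _ => by
        simp only [hu]
        ring
    have e2 : ∀ i k, T i k = ∑ j ∈ S, (1 / a j) * (u j i * u j k) := by
      intro i k
      rw [hT, Matrix.sum_apply]
      exact Finset.sum_congr rfl fun j _ => by
        rw [Matrix.smul_apply, Matrix.vecMulVec_apply, smul_eq_mul]
    simp only [hQ, e1, e2, Finset.mul_sum, Finset.sum_mul]
    rw [Finset.sum_comm]
    refine Finset.sum_congr rfl fun i _ => ?_
    rw [Finset.sum_comm]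
    refine Finset.sum_congr rfl fun k _ => ?_
    refine Finset.sum_congr rfl fun j _ => ?_
    ring
  have hQvar : cv ν Q Q ≤ 16 * (T * K * T * K).trace := by
    have h := quad_lc (μ := ν) hlc hTs (b := bc ν) (fun i => rfl) (K := K) (fun i j => rfl)
    have e1 : (∫ x, (∑ i, ∑ j, T i j * ((x i - bc ν i) * (x j - bc ν j))) ^ 2 ∂ν) = ∫ x, Q x * Q x ∂ν :=
      integral_congr_ae (Eventually.of_forall fun x => by
        show (∑ i, ∑ j, T i j * ((x i - bc ν i) * (x j - bc ν j))) ^ 2 = Q x * Q x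
        rw [← hQT x, pow_two])
    have e2 : (∫ x, ∑ i, ∑ j, T i j * ((x i - bc ν i) * (x j - bc ν j)) ∂ν) = ∫ x, Q x ∂ν :=
      integral_congr_ae (Eventually.of_forall fun x => (hQT x).symm)
    rw [e1, e2, pow_two (∫ x, Q x ∂ν)] at h
    exact h
  -- the trace
  have htr : (T * K * T * K).trace ≤ K1 / K0 * S.card := by
    rw [hT, tr_comb]
    have hrow : ∀ j ∈ S, ∑ k ∈ S, (u j ⬝ᵥ (K *ᵥ u k)) ^ 2 ≤ K1 * a j := by
      intro j hj
      set c : Fin m → ℝ := fun k => u j ⬝ᵥ (K *ᵥ u k) with hc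
      set w : E n := ∑ k ∈ S, c k • v k with hw
      have hws : w ∈ Submodule.span ℝ (v '' (S : Set (Fin m))) := by
        rw [hw]
        exact Submodule.sum_mem _ fun k hk => Submodule.smul_mem _ _
          (Submodule.subset_span ⟨k, hk, rfl⟩)
      have hwn : ‖w‖ ^ 2 = ∑ k ∈ S, c k ^ 2 := by
        rw [← real_inner_self_eq_norm_sq, hw]
        rw [hv.inner_sum]
        exact Finset.sum_congr rfl fun k _ => by
          simp
          ring
      have hwl : ∀ x, li w x = ∑ k ∈ S, c k * li (v k) x := by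
        intro x
        show inner ℝ x w = ∑ k ∈ S, c k * inner ℝ x (v k)
        rw [hw, _root_.inner_sum]
        exact Finset.sum_congr rfl fun k _ => by rw [inner_smul_right]
      have hcw : cv ν (li (v j)) (li w) = ∑ k ∈ S, c k ^ 2 := by
        have : li w = fun x => ∑ k ∈ S, c k * li (v k) x := funext hwl
        rw [this, cv_sum hlc S c (fun k => li (v k)) (gr_li (v j)) fun k => gr_li (v k)]
        refine Finset.sum_congr rfl fun k _ => ?_
        rw [hcv]
        show c k * c k = c k ^ 2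
        ring
      have h1 := hCS (li (v j)) (li w) (gr_li _) (gr_li _)
      have h2 : cv ν (li w) (li w) ≤ K1 * ‖w‖ ^ 2 := hup w hws
      have h3 : cv ν (li (v j)) (li (v j)) = a j := rfl
      rw [hcw, h3] at h1
      rw [hwn] at h2
      have h4 : 0 ≤ ∑ k ∈ S, c k ^ 2 := Finset.sum_nonneg fun k _ => sq_nonneg _
      have h5 : 0 < a j := ha0 j hj
      have h6 : (∑ k ∈ S, c k ^ 2) ^ 2 ≤ (K1 * a j) * ∑ k ∈ S, c k ^ 2 := by
        have := mul_le_mul_of_nonneg_left h2 h5.le
        nlinarith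
      have hK1 : 0 ≤ K1 := by
        have h7 := hup (v j) (Submodule.subset_span ⟨j, hj, rfl⟩)
        rw [hv.1 j] at h7
        have h8 : va ν (v j) = a j := rfl
        rw [h8] at h7
        linarith
      rcases h4.eq_or_lt with h | h
      · rw [← h]
        positivity
      · nlinarith [mul_pos h h]
    have hterm : ∀ j ∈ S, ∑ k ∈ S, 1 / a j * (1 / a k) *
        ((u j ⬝ᵥ (K *ᵥ u k)) * (u k ⬝ᵥ (K *ᵥ u j))) ≤ K1 / K0 := by
      intro j hj
      have h5 : 0 < a j := ha0 j hj
      have e : ∀ k, (u j ⬝ᵥ (K *ᵥ u k)) * (u k ⬝ᵥ (K *ᵥ u j)) = (u j ⬝ᵥ (K *ᵥ u k)) ^ 2 := by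
        intro k
        rw [← hcv, ← hcv, hsymc (li (v k))]
        ring
      have h6 : ∑ k ∈ S, 1 / a j * (1 / a k) * ((u j ⬝ᵥ (K *ᵥ u k)) * (u k ⬝ᵥ (K *ᵥ u j))) ≤
          ∑ k ∈ S, (1 / a j * (1 / K0)) * (u j ⬝ᵥ (K *ᵥ u k)) ^ 2 := by
        refine Finset.sum_le_sum fun k hk => ?_
        rw [e]
        refine mul_le_mul_of_nonneg_right ?_ (sq_nonneg _)
        exact mul_le_mul_of_nonneg_left (one_div_le_one_div_of_le hK0 (hlow k hk)) (by positivity)
      refine h6.trans ?_
      rw [← Finset.mul_sum]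
      have h7 := mul_le_mul_of_nonneg_left (hrow j hj) (by positivity : 0 ≤ 1 / a j * (1 / K0))
      refine h7.trans (le_of_eq ?_)
      field_simp
    refine (Finset.sum_le_sum hterm).trans (le_of_eq ?_)
    rw [Finset.sum_const, nsmul_eq_mul, mul_comm]
  -- conclusion
  have hsum : ∑ j ∈ S, cv ν f (sq ν (v j)) / va ν (v j) = cv ν f Q := by
    rw [hQ, cv_sum hlc S (fun j => 1 / a j) (fun j => sq ν (v j)) hf fun j => gr_sq hlc (v j)]
    exact Finset.sum_congr rfl fun j _ => by
      show cv ν f (sq ν (v j)) / a j = 1 / a j * cv ν f (sq ν (v j))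
      ring
  rw [hsum]
  have h1 := hCS f Q hf hQG
  have h2 := hpos f hf
  have h3 : cv ν Q Q ≤ 16 * (K1 / K0 * S.card) := hQvar.trans (by linarith)
  calc cv ν f Q ^ 2 ≤ cv ν f f * cv ν Q Q := h1
    _ ≤ cv ν f f * (16 * (K1 / K0 * S.card)) := mul_le_mul_of_nonneg_left h3 h2
    _ = 16 * cv ν f f * (K1 / K0 * S.card) := by ring

end Vale.Agent.P245.LT.SV

namespace Vale.Agent.P245.LT

/-- **row SV**: the variance bound (S1) for the active directions -/
theorem sv (hV : StVa) : StSV := SV.sv hV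

end Vale.Agent.P245.LT
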